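import Vale.Agent.P097.H983.Norm1
import Vale.Agent.P097.H983.Har
import Vale.Agent.P097.H328.W.PosW

/-!
# P097 / case [c] / (T) : boxes over one label (one variable)

`Bo X s R y` = box at scale `s` under the height `R`. Harnack for strip valued functions, and the
bounds of the line at every point of the box from one base point.
-/

set_option linter.all false

open Complex Metric Filter Topology Set

namespace Vale.Agent.P097.H555

open Vale.Agent.P097.H264 Vale.Agent.P097.H881 Vale.Agent.P097.TC Vale.Agent.P097.H983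
  Vale.Agent.P097.H328.W

/-- the box -/
def Bo (X s R y : ℝ) : Set ℂ := {t | |t.re - y| ≤ X * s ∧ s / X ≤ R - t.im ∧ R - t.im ≤ X * s}

/-- the open box -/
def Bi (X s R y : ℝ) : Set ℂ := {t | |t.re - y| < X * s ∧ s / X < R - t.im ∧ R - t.im < X * s}

theorem isOpen_Bi (X s R y : ℝ) : IsOpen (Bi X s R y) := by
  refine IsOpen.inter ?_ (IsOpen.inter ?_ ?_)
  · exact isOpen_lt (continuous_abs.comp (continuous_re.sub continuous_const)) continuous_const
  · exact isOpen_lt continuous_const (continuous_const.sub continuous_im)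
  · exact isOpen_lt (continuous_const.sub continuous_im) continuous_const

theorem Bi_sub (X s R y : ℝ) : Bi X s R y ⊆ Bo X s R y := fun _ h => ⟨h.1.le, h.2.1.le, h.2.2.le⟩

/-- balls of radius `s / (2 X)` -/
theorem ball_sub {X s R y : ℝ} (hX : 1 ≤ X) (hs : 0 < s) {t : ℂ} (ht : t ∈ Bo X s R y) :
    ball t (s / (2 * X)) ⊆ Bi (2 * X) s R y := by
  intro z hz
  rw [mem_ball, dist_eq_norm] at hz
  have h1 := (Complex.abs_re_le_norm (z - t)).trans_lt hz
  have h2 := (Complex.abs_im_le_norm (z - t)).trans_lt hz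
  rw [sub_re, abs_lt] at h1
  rw [sub_im, abs_lt] at h2
  obtain ⟨a1, a2, a3⟩ := ht
  rw [abs_le] at a1
  have e1 : s / (2 * X) = s / X / 2 := by field_simp
  have e2 : s / X ≤ s := by
    rw [div_le_iff₀ (by linarith)]
    nlinarith
  have e3 : s ≤ X * s := by nlinarith
  have e4 : 0 < s / X := by positivity
  rw [e1] at h1 h2
  refine ⟨?_, ?_, ?_⟩
  · rw [abs_lt]
    constructor <;> nlinarith
  · rw [e1]; linarith
  · nlinarith

theorem convex_Bo (X s R y : ℝ) : Convex ℝ (Bo X s R y) := by
  intro x hx z hz a c ha hc hac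
  obtain ⟨a1, a2, a3⟩ := hx
  obtain ⟨b1, b2, b3⟩ := hz
  rw [abs_le] at a1 b1
  have h1 : (a • x + c • z).re = a * x.re + c * z.re := by simp
  have h2 : (a • x + c • z).im = a * x.im + c * z.im := by simp
  have hc' : c = 1 - a := by linarith
  subst hc'
  refine ⟨?_, ?_, ?_⟩
  · rw [h1, abs_le]
    constructor <;> nlinarith
  · rw [h2]; nlinarith
  · rw [h2]; nlinarith

theorem seg_ball {X s R y : ℝ} (hX : 1 ≤ X) (hs : 0 < s) {z w : ℂ} (hz : z ∈ Bo X s R y)
    (hw : w ∈ Bo X s R y) : ∀ t ∈ Icc (0 : ℝ) 1, ball (z + (t : ℂ) • (w - z)) (s / (2 * X)) ⊆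
      Bi (2 * X) s R y := by
  intro t ht
  refine ball_sub hX hs ?_
  have h := convex_Bo X s R y hz hw (a := 1 - t) (b := t) (by linarith [ht.2]) ht.1 (by ring)
  have e : z + (t : ℂ) • (w - z) = (1 - t) • z + t • w := by
    simp only [Complex.real_smul, smul_eq_mul]
    push_cast
    ring
  rw [e]
  exact h

theorem diam_Bo {X s R y : ℝ} (hX : 1 ≤ X) (hs : 0 < s) {z w : ℂ} (hz : z ∈ Bo X s R y)
    (hw : w ∈ Bo X s R y) : ‖w - z‖ ≤ 3 * X * s := by
  obtain ⟨a1, a2, a3⟩ := hz
  obtain ⟨b1, b2, b3⟩ := hw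
  rw [abs_le] at a1 b1
  have e4 : 0 < s / X := by positivity
  have h1 : |(w - z).re| ≤ 2 * X * s := by
    rw [sub_re, abs_le]
    constructor <;> linarith
  have h2 : |(w - z).im| ≤ X * s := by
    rw [sub_im, abs_le]
    constructor <;> linarith
  calc ‖w - z‖ ≤ |(w - z).re| + |(w - z).im| := Complex.norm_le_abs_re_add_abs_im _
    _ ≤ 3 * X * s := by linarith

/-- Harnack for a function with values in the strip -/
theorem harn_box {b R y H s X : ℝ} (hX : 1 ≤ X) (hs : 0 < s) (hroom : b < R - 4 * X ^ 3 * s)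
    {f : ℂ → ℂ} (hf : DifferentiableOn ℂ f {t | b < t.im ∧ t.im < R})
    (hm : ∀ t : ℂ, b < t.im → t.im < R → |(f t).im| < H) {c : ℝ} {z w : ℂ}
    (hz : z ∈ Bo X s R y) (h0 : |(f z).im| ≤ (1 - c) * H) (hw : w ∈ Bo X s R y) :
    |(f w).im| ≤ (1 - c / (64 * X ^ 8)) * H := by
  have hX0 : 0 < X := by linarith
  set L : ℝ := 2 * X ^ 3 * s with hL
  have hL0 : 0 < L := by positivity
  set c0 : ℂ := (y : ℂ) + ((R - L : ℝ) : ℂ) * I with hc0
  have hre : c0.re = y := by simp [hc0]
  have him : c0.im = R - L := by simp [hc0]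
  have hball : ball c0 L ⊆ {t | b < t.im ∧ t.im < R} := by
    intro t ht
    rw [mem_ball, dist_eq_norm] at ht
    have h2 := (Complex.abs_im_le_norm (t - c0)).trans_lt ht
    rw [sub_im, abs_lt, him] at h2
    constructor
    · have : 2 * L = 4 * X ^ 3 * s := by rw [hL]; ring
      linarith
    · linarith
  have hD : ∀ v ∈ Bo X s R y, ‖v - c0‖ ≤ L - s / (2 * X) := by
    rintro v ⟨a1, a2, a3⟩
    have e4 : 0 < s / X := by positivity
    have h1 : ‖v - c0‖ ^ 2 ≤ L ^ 2 - 2 * (X * s) ^ 2 := by
      rw [← Complex.normSq_eq_norm_sq, normSq_apply, sub_re, sub_im, hre, him]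
      have h3 : (v.re - y) * (v.re - y) ≤ (X * s) ^ 2 := by
        rw [abs_le] at a1
        nlinarith
      have h4 : (v.im - (R - L)) * (v.im - (R - L)) = L ^ 2 - 2 * L * (R - v.im) + (R - v.im) ^ 2 := by
        ring
      have h5 : (R - v.im) ^ 2 ≤ (X * s) ^ 2 := by nlinarith
      have h6 : 4 * (X * s) ^ 2 ≤ 2 * L * (R - v.im) := by
        have : 2 * L * (s / X) = 4 * (X * s) ^ 2 := by
          rw [hL]; field_simp; ring
        rw [← this]
        gcongr
      linarith
    have h2 : (L - s / (2 * X)) ^ 2 = L ^ 2 - 2 * (X * s) ^ 2 + (s / (2 * X)) ^ 2 := by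
      rw [hL]; field_simp; ring
    have h3 : 0 ≤ L - s / (2 * X) := by
      have : s / (2 * X) ≤ s := by
        rw [div_le_iff₀ (by positivity)]
        nlinarith
      have : s ≤ L := by
        rw [hL]
        have : 1 ≤ X ^ 3 := one_le_pow₀ hX
        nlinarith
      linarith
    refine abs_le_of_sq_le_sq' ?_ h3 |>.2
    rw [h2]
    have := sq_nonneg (s / (2 * X))
    linarith
  have key : ∀ g : ℂ → ℂ, DifferentiableOn ℂ g (ball c0 L) → (∀ t ∈ ball c0 L, 0 < (g t).re) →
      (g z).re ≤ 64 * X ^ 8 * (g w).re := by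
    intro g hg hp
    have hz' := hD z hz
    have hw' := hD w hw
    have e5 : 0 < s / (2 * X) := by positivity
    have h1 := (harnack2 hg hp (hz'.trans_lt (by linarith))).2
    have h2 := (harnack2 hg hp (hw'.trans_lt (by linarith))).1
    have hg0 : 0 < (g c0).re := hp _ (mem_ball_self hL0)
    have hgz : 0 < (g z).re := hp _ (by rw [mem_ball, dist_eq_norm]; linarith)
    have hgw : 0 < (g w).re := hp _ (by rw [mem_ball, dist_eq_norm]; linarith)
    have h3 : s / (2 * X) * (g z).re ≤ 2 * L * (g c0).re := by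
      calc s / (2 * X) * (g z).re ≤ (L - ‖z - c0‖) * (g z).re := by gcongr; linarith
        _ ≤ (L + ‖z - c0‖) * (g c0).re := h1
        _ ≤ 2 * L * (g c0).re := by gcongr; linarith
    have h4 : s / (2 * X) * (g c0).re ≤ 2 * L * (g w).re := by
      calc s / (2 * X) * (g c0).re ≤ (L - ‖w - c0‖) * (g c0).re := by gcongr; linarith
        _ ≤ (L + ‖w - c0‖) * (g w).re := h2
        _ ≤ 2 * L * (g w).re := by gcongr; linarith
    have h5 : (s / (2 * X)) * (s / (2 * X) * (g z).re) ≤ (s / (2 * X)) * (64 * X ^ 8 * (s / (2 * X)) * (g w).re) := by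
      calc (s / (2 * X)) * (s / (2 * X) * (g z).re) ≤ (s / (2 * X)) * (2 * L * (g c0).re) := by gcongr
        _ = 2 * L * (s / (2 * X) * (g c0).re) := by ring
        _ ≤ 2 * L * (2 * L * (g w).re) := by gcongr
        _ = (s / (2 * X)) * (64 * X ^ 8 * (s / (2 * X)) * (g w).re) := by
          rw [hL]; field_simp; ring
    have h6 := le_of_mul_le_mul_left h5 e5
    have h7 : s / (2 * X) * (g z).re ≤ s / (2 * X) * (64 * X ^ 8 * (g w).re) := by
      calc _ ≤ _ := h6
        _ = _ := by ring
    exact le_of_mul_le_mul_left h7 e5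
  have hf' := hf.mono hball
  have k1 := key (fun t => (H : ℂ) + I * f t) (hf'.const_mul _ |>.const_add _) (fun t ht => by
    have := hm t (hball ht).1 (hball ht).2
    rw [abs_lt] at this
    simp only [add_re, ofReal_re, mul_re, I_re, zero_mul, I_im, one_mul, zero_sub]
    linarith)
  have k2 := key (fun t => (H : ℂ) - I * f t) ((hf'.const_mul _).const_sub _) (fun t ht => by
    have := hm t (hball ht).1 (hball ht).2
    rw [abs_lt] at this
    simp only [sub_re, ofReal_re, mul_re, I_re, zero_mul, I_im, one_mul, zero_sub]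
    linarith)
  simp only [add_re, sub_re, ofReal_re, mul_re, I_re, zero_mul, I_im, one_mul, zero_sub] at k1 k2
  rw [abs_le] at h0 ⊢
  have hP : 0 < 64 * X ^ 8 := by positivity
  have e1 : c * H ≤ 64 * X ^ 8 * (H + -(f w).im) := by nlinarith
  have e2 : c * H ≤ 64 * X ^ 8 * (H + (f w).im) := by nlinarith
  have e3 : c / (64 * X ^ 8) * H ≤ H + -(f w).im := by
    rw [div_mul_eq_mul_div, div_le_iff₀ hP]; linarith
  have e4 : c / (64 * X ^ 8) * H ≤ H + (f w).im := by
    rw [div_mul_eq_mul_div, div_le_iff₀ hP]; linarith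
  constructor <;> linarith

/-- Borel-Caratheodory for a function with values in the strip -/
theorem borel_box {b R y H s X : ℝ} (hX : 1 ≤ X) (hs : 0 < s) (hroom : b < R - 4 * X ^ 3 * s)
    {f : ℂ → ℂ} (hf : DifferentiableOn ℂ f {t | b < t.im ∧ t.im < R})
    (hm : ∀ t : ℂ, b < t.im → t.im < R → |(f t).im| < H) {z w : ℂ}
    (hz : z ∈ Bo X s R y) (hw : w ∈ Bo X s R y) : ‖f w - f z‖ ≤ 32 * H * X ^ 4 := by
  have hX0 : 0 < X := by linarith
  set L : ℝ := 2 * X ^ 3 * s with hL
  have hL0 : 0 < L := by positivity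
  set c0 : ℂ := (y : ℂ) + ((R - L : ℝ) : ℂ) * I with hc0
  have hre : c0.re = y := by simp [hc0]
  have him : c0.im = R - L := by simp [hc0]
  have hball : ball c0 L ⊆ {t | b < t.im ∧ t.im < R} := by
    intro t ht
    rw [mem_ball, dist_eq_norm] at ht
    have h2 := (Complex.abs_im_le_norm (t - c0)).trans_lt ht
    rw [sub_im, abs_lt, him] at h2
    constructor
    · have : 2 * L = 4 * X ^ 3 * s := by rw [hL]; ring
      linarith
    · linarith
  have hH : 0 < H := (abs_nonneg _).trans_lt
    (hm c0 (hball (mem_ball_self hL0)).1 (hball (mem_ball_self hL0)).2)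
  have e5 : 0 < s / (2 * X) := by positivity
  have hf' := hf.mono hball
  have key : ∀ v ∈ Bo X s R y, ‖f v - f c0‖ ≤ 16 * H * X ^ 4 := by
    intro v hv
    have hv' : ‖v - c0‖ ≤ L - s / (2 * X) := by
      obtain ⟨a1, a2, a3⟩ := hv
      have e4 : 0 < s / X := by positivity
      have h1 : ‖v - c0‖ ^ 2 ≤ L ^ 2 - 2 * (X * s) ^ 2 := by
        rw [← Complex.normSq_eq_norm_sq, normSq_apply, sub_re, sub_im, hre, him]
        have h3 : (v.re - y) * (v.re - y) ≤ (X * s) ^ 2 := by
          rw [abs_le] at a1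
          nlinarith
        have h4 : (v.im - (R - L)) * (v.im - (R - L)) =
            L ^ 2 - 2 * L * (R - v.im) + (R - v.im) ^ 2 := by
          ring
        have h5 : (R - v.im) ^ 2 ≤ (X * s) ^ 2 := by nlinarith
        have h6 : 4 * (X * s) ^ 2 ≤ 2 * L * (R - v.im) := by
          have : 2 * L * (s / X) = 4 * (X * s) ^ 2 := by
            rw [hL]; field_simp; ring
          rw [← this]
          gcongr
        linarith
      have h2 : (L - s / (2 * X)) ^ 2 = L ^ 2 - 2 * (X * s) ^ 2 + (s / (2 * X)) ^ 2 := by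
        rw [hL]; field_simp; ring
      have h3 : 0 ≤ L - s / (2 * X) := by
        have : s / (2 * X) ≤ s := by
          rw [div_le_iff₀ (by positivity)]
          nlinarith
        have : s ≤ L := by
          rw [hL]
          have : 1 ≤ X ^ 3 := one_le_pow₀ hX
          nlinarith
        linarith
      refine abs_le_of_sq_le_sq' ?_ h3 |>.2
      rw [h2]
      have := sq_nonneg (s / (2 * X))
      linarith
    have hB := borel (g := fun t => -I * f t) (c := c0) (z := v) (R := L) (M := 2 * H)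
      (by positivity) (hf'.const_mul _) (fun t ht => by
        have h1 := hm t (hball ht).1 (hball ht).2
        have h2 := hm c0 (hball (mem_ball_self hL0)).1 (hball (mem_ball_self hL0)).2
        rw [abs_lt] at h1 h2
        simp only [sub_re, mul_re, neg_re, I_re, neg_zero, zero_mul, neg_im, I_im, neg_mul,
          one_mul, zero_sub, neg_neg]
        linarith) (by linarith)
    have e1 : -I * f v - -I * f c0 = -I * (f v - f c0) := by ring
    simp only [e1, norm_mul, norm_neg, Complex.norm_I, one_mul] at hB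
    refine hB.trans ?_
    rw [div_le_iff₀ (by linarith)]
    have h7 : 2 * (2 * H) * ‖v - c0‖ ≤ 2 * (2 * H) * L := by
      gcongr
      linarith
    have h8 : 2 * (2 * H) * L = 16 * H * X ^ 4 * (s / (2 * X)) := by
      rw [hL]; field_simp; ring
    have h9 : 16 * H * X ^ 4 * (s / (2 * X)) ≤ 16 * H * X ^ 4 * (L - ‖v - c0‖) := by
      gcongr
      linarith
    linarith
  have e1 : f w - f z = (f w - f c0) - (f z - f c0) := by ring
  rw [e1]
  refine (norm_sub_le _ _).trans ?_
  have := key z hz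
  have := key w hw
  linarith

end Vale.Agent.P097.H555
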