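import Vale.Agent.P097.H555.Box
import Vale.Agent.P097.TC.Defs5

/-!
# P097 / case [c] / (T) : `QG` of helper82: R2 free good points and bounded lines at all late
scales of a nested sequence
-/

set_option linter.all false

open Complex Metric Filter Topology Set MeasureTheory

namespace Vale.Agent.P097.H555

open Vale.Agent.P097.H264 Vale.Agent.P097.H881 Vale.Agent.P097.TC Vale.Agent.P097.H983
  Vale.Agent.P097.H328.W

/-- bounds of the curve at mid-level points -/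
theorem curve_bd {Λ H : ℝ} {F q : ℂ → ℂ} (crv : A5.Crv Λ H F q) {c : ℝ} (hc : 0 < c) :
    ∃ M : ℝ, 1 ≤ M ∧ ∀ x : ℂ, x ∈ Sb H → |x.im| ≤ (1 - c) * H →
      ‖F x - 2 * Real.pi * x‖ ≤ M ∧ ‖deriv F x‖ ≤ M ∧ ‖q x‖ ≤ Real.exp M ∧
        ‖deriv q x‖ ≤ Real.exp M := by
  have hH0 : 0 < H := crv.cv.b0
  obtain ⟨K, hK, hgro⟩ := crv.gro 1 one_pos
  have hMe : 0 < K * (c * H) ^ (-1 : ℝ) := by positivity
  refine ⟨Real.exp (K * (c * H) ^ (-1 : ℝ)), Real.one_le_exp hMe.le, ?_⟩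
  intro x hx hxi
  obtain ⟨g1, g2, g3, g4⟩ := hgro x hx
  have e1 : c * H ≤ H - |x.im| := by linarith
  have e2 : (H - |x.im|) ^ (-1 : ℝ) ≤ (c * H) ^ (-1 : ℝ) := by
    rw [Real.rpow_neg_one, Real.rpow_neg_one]
    exact inv_anti₀ (by positivity) e1
  have e3 : Real.exp (K * (H - |x.im|) ^ (-1 : ℝ)) ≤ Real.exp (K * (c * H) ^ (-1 : ℝ)) := by
    gcongr
  exact ⟨g1.trans e3, g2.trans e3, g3.trans (Real.exp_le_exp.2 e3),
    g4.trans (Real.exp_le_exp.2 e3)⟩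

/-- number of steps in a box -/
noncomputable def AX (X : ℝ) : ℝ := KR ^ (480 * X ^ 2 + 1)

theorem AX_one (X : ℝ) : 1 ≤ AX X := Real.one_le_rpow KR_one (by positivity)

/-- bound of the state -/
noncomputable def TX (X M c V : ℝ) : ℝ :=
  1 + (AX X * KR * (2 * |V|) + ((AX X * KR) ^ 2 - 1) * (1 + |Real.log (M / c)|)) +
    |Real.log (M / c)|

theorem TX_one (X M c V : ℝ) : 1 ≤ TX X M c V := by
  have hAK : 1 ≤ AX X * KR := one_le_mul_of_one_le_of_one_le (AX_one X) KR_one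
  have hAK2 : 0 ≤ (AX X * KR) ^ 2 - 1 := by nlinarith
  unfold TX
  have : 0 ≤ AX X * KR * (2 * |V|) := by positivity
  have : 0 ≤ ((AX X * KR) ^ 2 - 1) * (1 + |Real.log (M / c)|) := by positivity
  linarith [abs_nonneg (Real.log (M / c))]

theorem nexp {X s R y : ℝ} (hX : 1 ≤ X) (hs : 0 < s) {z w : ℂ} (hz : z ∈ Bo X s R y)
    (hw : w ∈ Bo X s R y) : 80 * ‖w - z‖ / (s / (2 * X)) + 1 ≤ 480 * X ^ 2 + 1 := by
  have h3 := diam_Bo hX hs hz hw
  have hX0 : 0 < X := by linarith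
  have : 80 * ‖w - z‖ / (s / (2 * X)) ≤ 480 * X ^ 2 := by
    rw [div_le_iff₀ (by positivity)]
    calc 80 * ‖w - z‖ ≤ 80 * (3 * X * s) := by gcongr
      _ = 480 * X ^ 2 * (s / (2 * X)) := by field_simp; ring
  linarith

/-- the chains in a box -/
theorem chains {X s R y : ℝ} (hX : 1 ≤ X) (hs : 0 < s) {z w : ℂ} (hz : z ∈ Bo X s R y)
    (hw : w ∈ Bo X s R y) :
    JL (Bi (2 * X) s R y) (AX X) z (s / (2 * X) / 80) w (s / (2 * X) / 80) ∧
      JR (Bi (2 * X) s R y) (AX X) z (s / (2 * X) / 80) w (s / (2 * X) / 80) := by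
  have hX0 : 0 < X := by linarith
  have hr0 : 0 < s / (2 * X) := by positivity
  have hcb : closedBall z (s / (2 * X) / 80) ⊆ Bi (2 * X) s R y :=
    (closedBall_subset_ball (by linarith)).trans (ball_sub hX hs hz)
  have h1 := Real.rpow_le_rpow_of_exponent_le KR_one (nexp hX hs hz hw)
  exact ⟨(JL.path_seg hr0 (seg_ball hX hs hz hw)).mono (b := AX X) h1 hcb
    (Real.one_le_rpow KR_one (by positivity)),
    (JR.path_seg hr0 (seg_ball hX hs hz hw)).mono (b := AX X) h1 hcb⟩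

/-- the state at the non R2 point -/
theorem state_bd {X s R y M c V : ℝ} (hX : 1 ≤ X) (hs : 0 < s) (hc : 0 < c) {G g : ℂ → ℂ}
    (hRG : RG (Bi (2 * X) s R y) M G g) {z₁ z₂ : ℂ} (hz₁ : z₁ ∈ Bo X s R y)
    (hz₂ : z₂ ∈ Bo X s R y) (h1 : |(G z₁).re| ≤ 2 * |V|) (h2 : c ≤ ‖g z₂‖) :
    St M G g z₂ ≤ TX X M c V := by
  have hX0 : 0 < X := by linarith
  have hr0 : 0 < s / (2 * X) := by positivity
  have hz2U : z₂ ∈ Bi (2 * X) s R y := ball_sub hX hs hz₂ (mem_ball_self hr0)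
  have hg0 : g z₂ ≠ 0 := by
    intro h
    rw [h, norm_zero] at h2
    linarith
  have hgp : 0 < ‖g z₂‖ := norm_pos_iff.2 hg0
  have hM0 : 0 < M := hgp.trans_le (hRG.bd _ hz2U)
  have hlog : Real.log (M / ‖g z₂‖) ≤ |Real.log (M / c)| := by
    refine le_trans ?_ (le_abs_self _)
    apply Real.log_le_log (by positivity)
    gcongr
  have k1 := (JL.fin (chains hX hs hz₂ hz₁).1 (AX_one X) hr0 (ball_sub hX hs hz₁) hRG (z' := z₂)
    (by rw [sub_self, norm_zero]; positivity) hg0 hz2U (v := z₁)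
    (by rw [sub_self, norm_zero]; positivity)).1
  have hAK : 1 ≤ AX X * KR := one_le_mul_of_one_le_of_one_le (AX_one X) KR_one
  have hAK2 : 0 ≤ (AX X * KR) ^ 2 - 1 := by nlinarith
  have e2 : AX X * KR * |(G z₁).re| ≤ AX X * KR * (2 * |V|) := by gcongr
  have e3 : ((AX X * KR) ^ 2 - 1) * (1 + Sg M g z₂) ≤
      ((AX X * KR) ^ 2 - 1) * (1 + |Real.log (M / c)|) := by
    unfold Sg
    gcongr
  unfold St TX
  linarith

theorem re2 (x : ℂ) : |(2 * I * x).re| = 2 * |x.im| := by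
  have : (2 * I * x).re = -(2 * x.im) := by
    rw [mul_assoc]
    simp [Complex.mul_re, Complex.mul_im]
  rw [this, abs_neg, abs_mul, abs_of_pos (by norm_num : (0 : ℝ) < 2)]

/-- the data of a vertex over one label -/
structure Sl (H : ℝ) (F q : ℂ → ℂ) (b R : ℝ) (a p θ : ℂ → ℂ) : Prop where
  da : DifferentiableOn ℂ a {t | b < t.im ∧ t.im < R}
  dp : DifferentiableOn ℂ p {t | b < t.im ∧ t.im < R}
  dθ : DifferentiableOn ℂ θ {t | b < t.im ∧ t.im < R}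
  mem : ∀ t : ℂ, b < t.im → t.im < R → θ t ∈ Sb H
  inc : ∀ t : ℂ, b < t.im → t.im < R → Mi F q (a t) (p t) (θ t) = 0
  smp : ∀ t : ℂ, b < t.im → t.im < R → deriv (Mi F q (a t) (p t)) (θ t) ≠ 0

theorem Bi_sub_strip {X s R y b : ℝ} (hX : 1 ≤ X) (hs : 0 < s) (hroom : b < R - 4 * X ^ 3 * s) :
    Bi X s R y ⊆ {t | b < t.im ∧ t.im < R} := by
  rintro t ⟨a1, a2, a3⟩
  have e4 : 0 < s / X := by positivity
  have e5 : X * s ≤ 4 * X ^ 3 * s := by
    have : X ≤ 4 * X ^ 3 := by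
      have : X ≤ X ^ 3 := le_self_pow₀ hX (by norm_num)
      nlinarith
    gcongr
  exact ⟨by linarith, by linarith⟩

theorem Bo_mono {X s R y : ℝ} (hX : 1 ≤ X) (hs : 0 < s) : Bo X s R y ⊆ Bo (2 * X) s R y := by
  have hX0 : 0 < X := by linarith
  rintro t ⟨a1, a2, a3⟩
  have e1 : s / (2 * X) ≤ s / X := by
    rw [div_le_div_iff₀ (by positivity) hX0]
    nlinarith
  have e2 : X * s ≤ 2 * X * s := by nlinarith
  exact ⟨a1.trans e2, e1.trans a2, a3.trans e2⟩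

/-- `pos_fin` in a box -/
theorem pos_box {Λ H : ℝ} {F q : ℂ → ℂ} (cv : Cv Λ H F q) {b R y s X M c V : ℝ}
    {a p θ : ℂ → ℂ} (S : Sl H F q b R a p θ) (hX : 1 ≤ X) (hs : 0 < s) (hc : 0 < c)
    (hroom : b < R - 4 * (2 * X) ^ 3 * s) (hM : ∀ z ∈ Bi (2 * X) s R y, ‖deriv F (θ z)‖ ≤ M)
    {z₁ z₂ v : ℂ} (hz₁ : z₁ ∈ Bo X s R y) (h1 : |(a z₁ - F (θ z₁)).im| ≤ V)
    (hz₂ : z₂ ∈ Bo X s R y) (h2 : c ≤ ‖deriv F (θ z₂)‖) (hv : v ∈ Bo X s R y) :
    ‖a v - F (θ v) - (a z₂ - F (θ z₂))‖ ≤ KR * AX X * TX X M c V ∧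
      |(a z₂ - F (θ z₂)).im| ≤ TX X M c V ∧
      M * ‖p v‖ ≤ (M * ‖q (θ v)‖ + ‖deriv q (θ v)‖) * Real.exp (KQ * AX X * TX X M c V) := by
  have hX0 : 0 < X := by linarith
  have hKR := KR_one
  have hAX := AX_one X
  have hTX := TX_one X M c V
  have hUD := Bi_sub_strip (y := y) (show 1 ≤ 2 * X by linarith) hs hroom
  have hr0 : 0 < s / (2 * X) := by positivity
  have hRG := rg cv (p := p) (S.da.mono hUD) (S.dθ.mono hUD)
    (fun z hz => S.mem z (hUD hz).1 (hUD hz).2)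
    (fun z hz => S.inc z (hUD hz).1 (hUD hz).2) (fun z hz => S.smp z (hUD hz).1 (hUD hz).2) hM
  have hz2U : z₂ ∈ Bi (2 * X) s R y := ball_sub hX hs hz₂ (mem_ball_self hr0)
  have hg0 : deriv F (θ z₂) ≠ 0 := by
    intro h
    rw [h, norm_zero] at h2
    linarith
  have hgp : 0 < ‖deriv F (θ z₂)‖ := norm_pos_iff.2 hg0
  have hM0 : 0 < M := hgp.trans_le (hM _ hz2U)
  have hSt := state_bd (V := V) hX hs hc hRG hz₁ hz₂ (by
    rw [re2]
    have := h1.trans (le_abs_self V)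
    linarith) h2
  set St0 := St M (fun z => 2 * I * (a z - F (θ z))) (fun z => deriv F (θ z)) z₂ with hSt0
  have hSt1 : 1 ≤ St0 := St_pos hRG hz2U hg0
  obtain ⟨m1, _, m3⟩ := pos_fin cv (isOpen_Bi _ _ _ _) (S.da.mono hUD) (S.dp.mono hUD)
    (S.dθ.mono hUD) (fun z hz => S.mem z (hUD hz).1 (hUD hz).2)
    (fun z hz => S.inc z (hUD hz).1 (hUD hz).2) (fun z hz => S.smp z (hUD hz).1 (hUD hz).2) hM
    (chains hX hs hz₂ hv).2 hAX hr0 (ball_sub hX hs hv) (z' := z₂)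
    (by rw [sub_self, norm_zero]; positivity) hg0 hz2U (v := v)
    (by rw [sub_self, norm_zero]; positivity)
  refine ⟨?_, ?_, ?_⟩
  · have e1 : 2 * I * (a v - F (θ v)) - 2 * I * (a z₂ - F (θ z₂)) =
        2 * I * (a v - F (θ v) - (a z₂ - F (θ z₂))) := by ring
    rw [e1, norm_mul, norm_mul, Complex.norm_ofNat, Complex.norm_I, mul_one] at m1
    have e4 : 0 ≤ KR * AX X - 1 := by nlinarith
    have e2 : (KR * AX X - 1) * St0 ≤ KR * AX X * TX X M c V := by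
      calc _ ≤ (KR * AX X - 1) * TX X M c V := by gcongr
        _ ≤ KR * AX X * TX X M c V := by nlinarith
    have e5 := m1.trans e2
    linarith [norm_nonneg (a v - F (θ v) - (a z₂ - F (θ z₂)))]
  · have hl : 0 ≤ Real.log (M / ‖deriv F (θ z₂)‖) :=
      Real.log_nonneg ((one_le_div hgp).mpr (hM z₂ hz2U))
    have e1 : |(2 * I * (a z₂ - F (θ z₂))).re| ≤ St0 := by
      rw [hSt0]
      unfold St
      linarith
    rw [re2] at e1
    linarith [abs_nonneg ((a z₂ - F (θ z₂)).im)]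
  · refine m3.trans ?_
    have hKQ : 0 < KQ := by
      have := KP_one
      unfold KQ
      linarith
    gcongr

/-- **bounds in a box over one label**: from a mid-level point with bounded `Im del` and a non R2
point to all points of the box -/
theorem slice_bd {Λ H : ℝ} {F q : ℂ → ℂ} (crv : A5.Crv Λ H F q) {X c V : ℝ} (hX : 1 ≤ X)
    (hc : 0 < c) : ∃ c' > 0, ∃ C' > 0, ∀ {b R y s : ℝ} {a p θ : ℂ → ℂ}, 0 < s →
      b < R - 4 * (2 * X) ^ 3 * s → Sl H F q b R a p θ →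
      ∀ z₁ ∈ Bo X s R y, |(θ z₁).im| ≤ (1 - c) * H → |(a z₁ - F (θ z₁)).im| ≤ V →
      ∀ z₂ ∈ Bo X s R y, c ≤ ‖deriv F (θ z₂)‖ →
      ∀ v ∈ Bo X s R y, |(θ v).im| ≤ (1 - c') * H ∧ |(a v).im| ≤ C' ∧ ‖p v‖ ≤ C' ∧
        ‖θ v - θ z₂‖ ≤ C' ∧ ‖a v - a z₂‖ ≤ C' := by
  have hX0 : 0 < X := by linarith
  have h2X : 1 ≤ 2 * X := by linarith
  have hH0 : 0 < H := crv.cv.b0
  set c'' : ℝ := c / (64 * (2 * X) ^ 8) with hc''
  have hc''0 : 0 < c'' := by positivity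
  obtain ⟨M, hM1, hcur⟩ := curve_bd crv hc''0
  have hM0 : 0 < M := by linarith
  have hKR := KR_one
  have hAX := AX_one X
  set T : ℝ := TX X M c V with hT
  have hT1 : 1 ≤ T := TX_one X M c V
  have hpi := Real.pi_pos
  set C' : ℝ := KR * AX X * T + T + (M + 2 * Real.pi * H) +
    2 * Real.exp M * Real.exp (KQ * AX X * T) + (2 * M + (2 * Real.pi + 1) * (32 * H * (2 * X) ^ 4))
    with hC'
  have q4 : 0 < 2 * M + (2 * Real.pi + 1) * (32 * H * (2 * X) ^ 4) := by positivity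
  have q1 : 0 < KR * AX X * T := by positivity
  have q2 : 0 < M + 2 * Real.pi * H := by positivity
  have q3 : 0 < 2 * Real.exp M * Real.exp (KQ * AX X * T) := by positivity
  refine ⟨c'', hc''0, C', by positivity, ?_⟩
  intro b R y s a p θ hs hroom S z₁ hz₁ h1 hV z₂ hz₂ h2 v hv
  have hmid : ∀ w ∈ Bo (2 * X) s R y, |(θ w).im| ≤ (1 - c'') * H := fun w hw =>
    harn_box h2X hs hroom S.dθ (fun t h3 h4 => S.mem t h3 h4) (Bo_mono hX hs hz₁) h1 hw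
  have hUD := Bi_sub_strip (y := y) h2X hs hroom
  have hMU : ∀ z ∈ Bi (2 * X) s R y, ‖deriv F (θ z)‖ ≤ M := fun z hz =>
    (hcur _ (S.mem z (hUD hz).1 (hUD hz).2) (hmid z (Bi_sub _ _ _ _ hz))).2.1
  obtain ⟨n1, n2, n5⟩ := pos_box crv.cv S hX hs hc hroom hMU hz₁ hV hz₂ h2 hv
  rw [← hT] at n1 n2 n5
  have hvU : v ∈ Bi (2 * X) s R y := ball_sub hX hs hv (mem_ball_self (by positivity))
  have hvm := hmid v (Bi_sub _ _ _ _ hvU)
  obtain ⟨g1, g2, g3, g4⟩ := hcur _ (S.mem v (hUD hvU).1 (hUD hvU).2) hvm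
  have n3 : |(F (θ v)).im| ≤ M + 2 * Real.pi * H := by
    have e1 := (Complex.abs_im_le_norm _).trans g1
    have e2 : (F (θ v) - 2 * Real.pi * θ v).im = (F (θ v)).im - 2 * Real.pi * (θ v).im := by
      simp [Complex.mul_im]
    rw [e2, abs_le] at e1
    have e3 : |(θ v).im| ≤ H := hvm.trans (by nlinarith)
    have e4 : |2 * Real.pi * (θ v).im| ≤ 2 * Real.pi * H := by
      rw [abs_mul, abs_of_pos (by positivity : (0 : ℝ) < 2 * Real.pi)]
      gcongr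
    rw [abs_le] at e4 ⊢
    constructor <;> linarith
  have n4 : |(a v).im| ≤ KR * AX X * T + T + (M + 2 * Real.pi * H) := by
    have e1 : a v = (a v - F (θ v) - (a z₂ - F (θ z₂))) + (a z₂ - F (θ z₂)) + F (θ v) := by ring
    rw [e1, add_im, add_im]
    have e2 := (Complex.abs_im_le_norm _).trans n1
    calc _ ≤ |(a v - F (θ v) - (a z₂ - F (θ z₂))).im| + |(a z₂ - F (θ z₂)).im| +
          |(F (θ v)).im| := abs_add_three _ _ _
      _ ≤ _ := by linarith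
  have n6 : ‖p v‖ ≤ 2 * Real.exp M * Real.exp (KQ * AX X * T) := by
    have e3 : M * ‖q (θ v)‖ + ‖deriv q (θ v)‖ ≤ M * (2 * Real.exp M) := by
      have := Real.exp_pos M
      nlinarith
    have e1 : M * ‖p v‖ ≤ M * (2 * Real.exp M * Real.exp (KQ * AX X * T)) := by
      refine n5.trans ?_
      calc _ ≤ (M * (2 * Real.exp M)) * Real.exp (KQ * AX X * T) := by gcongr
        _ = _ := by ring
    exact le_of_mul_le_mul_left e1 hM0
  have hz2U : z₂ ∈ Bi (2 * X) s R y := ball_sub hX hs hz₂ (mem_ball_self (by positivity))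
  have n7 : ‖θ v - θ z₂‖ ≤ 32 * H * (2 * X) ^ 4 :=
    borel_box h2X hs hroom S.dθ (fun t h3 h4 => S.mem t h3 h4) (Bo_mono hX hs hz₂)
      (Bo_mono hX hs hv)
  obtain ⟨g1', _, _, _⟩ := hcur _ (S.mem z₂ (hUD hz2U).1 (hUD hz2U).2)
    (hmid z₂ (Bi_sub _ _ _ _ hz2U))
  have n8 : ‖a v - a z₂‖ ≤ KR * AX X * T + (2 * M + 2 * Real.pi * (32 * H * (2 * X) ^ 4)) := by
    have e1 : a v - a z₂ = (a v - F (θ v) - (a z₂ - F (θ z₂))) + ((F (θ v) - 2 * Real.pi * θ v) -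
        (F (θ z₂) - 2 * Real.pi * θ z₂) + 2 * Real.pi * (θ v - θ z₂)) := by ring
    rw [e1]
    refine (norm_add_le _ _).trans (add_le_add n1 ?_)
    refine (norm_add_le _ _).trans (add_le_add ?_ ?_)
    · refine (norm_sub_le _ _).trans ?_
      linarith
    · rw [norm_mul, norm_mul, Complex.norm_ofNat, Complex.norm_real, Real.norm_eq_abs,
        abs_of_pos hpi]
      gcongr
  have q5 : 0 < 32 * H * (2 * X) ^ 4 := by positivity
  have q6 : (2 * Real.pi + 1) * (32 * H * (2 * X) ^ 4) = 2 * Real.pi * (32 * H * (2 * X) ^ 4) +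
      32 * H * (2 * X) ^ 4 := by ring
  have q7 : 0 < 2 * Real.pi * (32 * H * (2 * X) ^ 4) := by positivity
  refine ⟨hvm, ?_, ?_, ?_, ?_⟩
  · rw [hC']; linarith
  · rw [hC']; linarith
  · rw [hC']; linarith
  · rw [hC']; linarith

/-- the slice of the world over a label -/
theorem sl_of {Λ H : ℝ} {F q : ℂ → ℂ} {b m : ℝ} {Ψ : ℂ → ℂ} {Mj Mk B : Set (ℂ × ℂ)} {A : Set ℝ}
    {P : ℝ → ℂ} {c k : ℝ → ℝ} {K s y₀ u₀ σ : ℝ} {al p th : ℂ × ℂ → ℂ} {J : ℂ → ℂ}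
    (W : A5.W5 Λ H F q b m Ψ Mj Mk B A P c k K y₀ u₀ σ s al p th J) {u : ℝ} (hu : u ∈ A) :
    Sl H F q b (P u).im (fun t => al (t, (u : ℂ))) (fun t => p (t, (u : ℂ)))
      (fun t => th (t, (u : ℂ))) := by
  obtain ⟨δ, hδ, hcone⟩ := W.coneU 1 one_pos
  have hB : ∀ t : ℂ, b < t.im → t.im < (P u).im → ((t, (u : ℂ)) : ℂ × ℂ) ∈ B := by
    intro t h1 h2
    have := hcone u hu 0 (by rw [norm_zero]; exact hδ) t h1 (by simpa using h2)
    simpa using this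
  have huz : (u : ℂ) ≠ 0 := by
    exact_mod_cast W.uz u hu
  have hD : ∀ t : ℂ, b < t.im → t.im < (P u).im → ((t, (u : ℂ)) : ℂ × ℂ) ∈ A5.Dm Mj Mk :=
    fun t h1 h2 => ⟨⟨W.Bj (hB t h1 h2), W.Bk (hB t h1 h2)⟩, huz⟩
  have hd : DifferentiableOn ℂ (fun t : ℂ => ((t, (u : ℂ)) : ℂ × ℂ)) {t | b < t.im ∧ t.im < (P u).im} := by
    fun_prop
  exact ⟨W.dal.comp hd (fun t ht => W.Bk (hB t ht.1 ht.2)),
    W.dp.comp hd (fun t ht => W.Bk (hB t ht.1 ht.2)),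
    W.dth.comp hd (fun t ht => hD t ht.1 ht.2),
    fun t h1 h2 => W.mem _ (hD t h1 h2), fun t h1 h2 => W.inc _ (hD t h1 h2),
    fun t h1 h2 => W.smp _ (hD t h1 h2)⟩

/-- **QG** of helper82: at all scales below `S` there is an R2 free good point over the label -/
def QG (H : ℝ) (F : ℂ → ℂ) (P : ℝ → ℂ) (al p th : ℂ × ℂ → ℂ) (C c₁ S y u : ℝ) : Prop :=
  ∀ s : ℝ, 0 < s → s < S → ∃ y' S' : ℝ, |y' - y| ≤ C * s ∧ s ≤ C * S' ∧ S' ≤ C * s ∧
    |(th (A5.vp P y' u S')).im| ≤ (1 - c₁) * H ∧ c₁ ≤ ‖deriv F (th (A5.vp P y' u S'))‖ ∧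
    |(al (A5.vp P y' u S')).im| ≤ C ∧ ‖p (A5.vp P y' u S')‖ ≤ C

/-- bounds at all points of the box at scale `s` over the label `u` -/
def BX (H : ℝ) (P : ℝ → ℂ) (al p th : ℂ × ℂ → ℂ) (X C c₁ S y u : ℝ) : Prop :=
  ∀ s : ℝ, 0 < s → s < S → ∀ y' S' : ℝ, |y' - y| ≤ X * s → s ≤ X * S' → S' ≤ X * s →
    |(th (A5.vp P y' u S')).im| ≤ (1 - c₁) * H ∧ |(al (A5.vp P y' u S')).im| ≤ C ∧
    ‖p (A5.vp P y' u S')‖ ≤ C ∧ ‖th (A5.vp P y' u S') - th (A5.vp P y u s)‖ ≤ C ∧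
    ‖al (A5.vp P y' u S') - al (A5.vp P y u s)‖ ≤ C

theorem vp_eq (P : ℝ → ℂ) (y u S : ℝ) :
    A5.vp P y u S = ((((y : ℂ) + ((P u).im - S : ℝ) * I), (u : ℂ)) : ℂ × ℂ) := rfl

theorem vp_mem {X s R y y' S' : ℝ} (hX : 0 < X) (h1 : |y' - y| ≤ X * s) (h2 : s ≤ X * S')
    (h3 : S' ≤ X * s) : ((y' : ℂ) + (R - S' : ℝ) * I) ∈ Bo X s R y := by
  have e1 : ((y' : ℂ) + (R - S' : ℝ) * I).re = y' := by simp
  have e2 : ((y' : ℂ) + (R - S' : ℝ) * I).im = R - S' := by simp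
  refine ⟨by rw [e1]; exact h1, ?_, ?_⟩
  · rw [e2, div_le_iff₀ hX]; linarith
  · rw [e2]; linarith

/-- one point, one scale range: `QG` and the bounds in the boxes from `Nst` and `|Im del| ≤ V` -/
theorem qg_one {Λ H : ℝ} {F q : ℂ → ℂ} (crv : A5.Crv Λ H F q) {C c₁ V : ℝ} (hC : 0 < C)
    (hc : 0 < c₁) (X : ℝ) : ∃ C' > 0, ∃ c' > 0, ∃ r₀ > 0, ∀ {b m : ℝ} {Ψ : ℂ → ℂ}
      {Mj Mk B : Set (ℂ × ℂ)} {A : Set ℝ} {P : ℝ → ℂ} {c k : ℝ → ℝ} {K s y₀ u₀ σ : ℝ}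
      {al p th : ℂ × ℂ → ℂ} {J : ℂ → ℂ},
      A5.W5 Λ H F q b m Ψ Mj Mk B A P c k K y₀ u₀ σ s al p th J → ∀ {u y h g : ℝ}, u ∈ A →
      A5.Nst H b F P th C c₁ h y u → g ≤ h → g ≤ r₀ * ((P u).im - b) →
      (∀ S : ℝ, 0 < S → S ≤ g → |(A5.del F al th (A5.vp P y u S)).im| ≤ V) →
      QG H F P al p th C' c' g y u ∧ BX H P al p th X C' c' g y u := by
  set Y : ℝ := max (max X C) 1 with hY
  have hY1 : 1 ≤ Y := le_max_right _ _
  have hXY : X ≤ Y := (le_max_left _ _).trans (le_max_left _ _)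
  have hCY : C ≤ Y := (le_max_right _ _).trans (le_max_left _ _)
  have hY0 : 0 < Y := by linarith
  obtain ⟨c', hc', C', hC', hsl⟩ := slice_bd crv (V := V) hY1 hc
  refine ⟨2 * C' + Y, by positivity, min c' c₁, lt_min hc' hc, 1 / (4 * (2 * Y) ^ 3), by positivity, ?_⟩
  intro b m Ψ Mj Mk B A P c k K s y₀ u₀ σ al p th J W u y h g hu hN hgh hgr hV
  have S := sl_of W hu
  have hgap : b < (P u).im := W.hb u hu
  have main : ∀ r : ℝ, 0 < r → r < g → ∃ y' S' : ℝ, |y' - y| ≤ Y * r ∧ r ≤ Y * S' ∧ S' ≤ Y * r ∧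
      c₁ ≤ ‖deriv F (th (A5.vp P y' u S'))‖ ∧
      ∀ v ∈ Bo Y r (P u).im y, |(th (v, (u : ℂ))).im| ≤ (1 - c') * H ∧
        |(al (v, (u : ℂ))).im| ≤ C' ∧ ‖p (v, (u : ℂ))‖ ≤ C' ∧
        ‖th (v, (u : ℂ)) - th (A5.vp P y' u S')‖ ≤ C' ∧
        ‖al (v, (u : ℂ)) - al (A5.vp P y' u S')‖ ≤ C' := by
    intro r hr hrg
    obtain ⟨y', S', a1, a2, a3, a4⟩ := hN.nr2 r hr (hrg.trans_le hgh)
    have a1' : |y' - y| ≤ Y * r := a1.trans (by gcongr)
    have hS' : 0 < S' := by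
      by_contra hn
      push Not at hn
      nlinarith
    have a2' : r ≤ Y * S' := a2.trans (by gcongr)
    have a3' : S' ≤ Y * r := a3.trans (by gcongr)
    have hroom : b < (P u).im - 4 * (2 * Y) ^ 3 * r := by
      have e1 : 4 * (2 * Y) ^ 3 * r < 4 * (2 * Y) ^ 3 * (1 / (4 * (2 * Y) ^ 3) * ((P u).im - b)) := by
        gcongr
        linarith
      have e2 : 4 * (2 * Y) ^ 3 * (1 / (4 * (2 * Y) ^ 3) * ((P u).im - b)) = (P u).im - b := by
        field_simp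
      linarith
    have hz₁ : ((y : ℂ) + ((P u).im - r : ℝ) * I) ∈ Bo Y r (P u).im y :=
      vp_mem hY0 (by rw [sub_self, abs_zero]; positivity) (by nlinarith) (by nlinarith)
    have hz₂ : ((y' : ℂ) + ((P u).im - S' : ℝ) * I) ∈ Bo Y r (P u).im y := vp_mem hY0 a1' a2' a3'
    exact ⟨y', S', a1', a2', a3', a4, hsl hr hroom S _ hz₁ (hN.mid r hr (hrg.trans_le hgh))
      (hV r hr hrg.le) _ hz₂ a4⟩
  have hH0 : 0 < H := crv.cv.b0
  have hmin : (1 - c') * H ≤ (1 - min c' c₁) * H := by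
    have := min_le_left c' c₁
    gcongr
  constructor
  · intro r hr hrg
    obtain ⟨y', S', a1, a2, a3, a4, a5⟩ := main r hr hrg
    have hS' : 0 < S' := by
      by_contra hn
      push Not at hn
      nlinarith
    obtain ⟨b1, b2, b3, _, _⟩ := a5 _ (vp_mem (y' := y') (S' := S') hY0 a1 a2 a3)
    refine ⟨y', S', ?_, ?_, ?_, ?_, ?_, ?_, ?_⟩
    · refine a1.trans ?_
      gcongr
      linarith
    · refine a2.trans ?_
      gcongr
      linarith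
    · refine a3.trans ?_
      gcongr
      linarith
    · exact b1.trans hmin
    · exact (min_le_right _ _).trans a4
    · exact b2.trans (by linarith)
    · exact b3.trans (by linarith)
  · intro r hr hrg y' S' a1 a2 a3
    obtain ⟨y₂, S₂, _, _, _, _, a5⟩ := main r hr hrg
    have hS' : 0 < S' := by
      by_contra hn
      push Not at hn
      have hX0 : 0 < X ∨ X ≤ 0 := lt_or_ge _ _
      rcases hX0 with h1 | h1
      · nlinarith
      · have h2 : X * r ≤ 0 := by nlinarith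
        have h3 : 0 ≤ X * r := (abs_nonneg _).trans a1
        have h4 : X * r = 0 := le_antisymm h2 h3
        have h5 : X = 0 := by
          rcases mul_eq_zero.1 h4 with h6 | h6
          · exact h6
          · exact absurd h6 hr.ne'
        rw [h5, zero_mul] at a2
        linarith
    have a1' : |y' - y| ≤ Y * r := a1.trans (by gcongr)
    have a2' : r ≤ Y * S' := a2.trans (by gcongr)
    have a3' : S' ≤ Y * r := a3.trans (by gcongr)
    obtain ⟨b1, b2, b3, b4, b5⟩ := a5 _ (vp_mem (y' := y') (S' := S') hY0 a1' a2' a3')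
    obtain ⟨_, _, _, d4, d5⟩ := a5 _ (vp_mem (X := Y) (s := r) (R := (P u).im) (y := y) (y' := y)
      (S' := r) hY0 (by rw [sub_self, abs_zero]; positivity) (by nlinarith) (by nlinarith))
    refine ⟨b1.trans hmin, b2.trans (by linarith), b3.trans (by linarith), ?_, ?_⟩
    · rw [vp_eq P y' u S', vp_eq P y u r]
      have e : th (((y' : ℂ) + ((P u).im - S' : ℝ) * I), (u : ℂ)) -
          th (((y : ℂ) + ((P u).im - r : ℝ) * I), (u : ℂ)) =
          (th (((y' : ℂ) + ((P u).im - S' : ℝ) * I), (u : ℂ)) - th (A5.vp P y₂ u S₂)) -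
          (th (((y : ℂ) + ((P u).im - r : ℝ) * I), (u : ℂ)) - th (A5.vp P y₂ u S₂)) := by ring
      rw [e]
      refine (norm_sub_le _ _).trans ?_
      linarith
    · rw [vp_eq P y' u S', vp_eq P y u r]
      have e : al (((y' : ℂ) + ((P u).im - S' : ℝ) * I), (u : ℂ)) -
          al (((y : ℂ) + ((P u).im - r : ℝ) * I), (u : ℂ)) =
          (al (((y' : ℂ) + ((P u).im - S' : ℝ) * I), (u : ℂ)) - al (A5.vp P y₂ u S₂)) -
          (al (((y : ℂ) + ((P u).im - r : ℝ) * I), (u : ℂ)) - al (A5.vp P y₂ u S₂)) := by ring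
      rw [e]
      refine (norm_sub_le _ _).trans ?_
      linarith

/-- **QG for a nested sequence** -/
theorem qg_of {Λ H : ℝ} {F q : ℂ → ℂ} {b m : ℝ} {Ψ : ℂ → ℂ} {Mj Mk B : Set (ℂ × ℂ)} {A : Set ℝ}
    {P : ℝ → ℂ} {c k : ℝ → ℝ} {K s y₀ u₀ σ : ℝ} {al p th : ℂ × ℂ → ℂ} {J : ℂ → ℂ} {y u : ℕ → ℝ}
    (W : A5.W5 Λ H F q b m Ψ Mj Mk B A P c k K y₀ u₀ σ s al p th J) (Sq : A5.Sq A y₀ u₀ y u)
    {C c₁ V₁ : ℝ} (hC : 0 < C) (hc : 0 < c₁) {h g : ℕ → ℝ}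
    (hN : ∀ n, A5.Nst H b F P th C c₁ (h n) (y n) (u n)) (hg : ∀ n, 0 < g n ∧ g n < h n)
    (hg0 : Tendsto g atTop (𝓝 0)) (hL : A5.LNb F q P c u₀ σ s al p th y u g V₁) (X : ℝ) :
    ∃ C' > 0, ∃ c' > 0, ∀ᶠ n in atTop, QG H F P al p th C' c' (g n) (y n) (u n) ∧
      BX H P al p th X C' c' (g n) (y n) (u n) := by
  obtain ⟨C', hC', c', hc', r₀, hr₀, hone⟩ := qg_one W.crv (V := V₁) hC hc X
  refine ⟨C', hC', c', hc', ?_⟩
  have hgap : b < (P u₀).im := W.hb u₀ W.u0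
  have h1 : Tendsto (fun n => (P (u n)).im) atTop (𝓝 (P u₀).im) := by
    have h2 := (W.cR u₀ W.u0).tendsto
    have h3 : Tendsto u atTop (𝓝[A] u₀) :=
      tendsto_nhdsWithin_iff.2 ⟨Sq.ut, Eventually.of_forall Sq.uA⟩
    exact h2.comp h3
  have h2 : ∀ᶠ n in atTop, ((P u₀).im - b) / 2 < (P (u n)).im - b := by
    have h3 : Tendsto (fun n => (P (u n)).im - b) atTop (𝓝 ((P u₀).im - b)) := h1.sub_const b
    exact h3.eventually_const_lt (by linarith)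
  have h4 : ∀ᶠ n in atTop, g n < r₀ * (((P u₀).im - b) / 2) :=
    hg0.eventually_lt_const (by
      have : 0 < (P u₀).im - b := by linarith
      positivity)
  filter_upwards [h2, h4, hL.bd] with n a1 a2 a3
  refine hone W (Sq.uA n) (hN n) (hg n).2.le ?_ a3
  refine a2.le.trans ?_
  gcongr

end Vale.Agent.P097.H555
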